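import Vale.Agent.Lib.P074.Main

namespace Vale.Agent.Results.P074.A_main

open Vale.Agent.P074

/-- In every dimension `d ≥ 2`: the exponent `1/2` is not admissible, no exponent above `1/3` is
admissible, and hence the supremum of the admissible exponents in `(0, 1]` is at most `1/3`.
The witness is the unit cube with two-atom targets carrying a small mass on one site. -/
theorem result (d : ℕ) (hd : 2 ≤ d) :
    ¬ Admissible d (1 / 2) ∧ (∀ α : ℝ, 1 / 3 < α → ¬ Admissible d α) ∧
      sSup {α : ℝ | 0 < α ∧ α ≤ 1 ∧ Admissible d α} ≤ 1 / 3 := by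
  refine ⟨not_admissible hd (by norm_num), fun α hα => not_admissible hd hα, ?_⟩
  refine Real.sSup_le (fun α hα => ?_) (by norm_num)
  rw [Set.mem_ofPred_eq] at hα
  by_contra hcon
  exact not_admissible hd (not_le.mp hcon) hα.2.2

end Vale.Agent.Results.P074.A_main
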