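import Vale.Agent.Lib.P074.Main
import Vale.Agent.Lib.P074.Quarter

namespace Vale.Agent.Results.P074.B_quarter

open Vale.Agent.P074

/-- In every dimension `d ≥ 2` the exponent `1/4` is admissible while no exponent above `1/3`
is admissible; hence the supremum of the admissible exponents lies in `[1/4, 1/3]`. -/
theorem result (d : ℕ) (hd : 2 ≤ d) :
    Admissible d (1 / 4) ∧ (∀ α : ℝ, 1 / 3 < α → ¬ Admissible d α) ∧
      1 / 4 ≤ sSup {α : ℝ | 0 < α ∧ α ≤ 1 ∧ Admissible d α} ∧
      sSup {α : ℝ | 0 < α ∧ α ≤ 1 ∧ Admissible d α} ≤ 1 / 3 := by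
  have hq : Admissible d (1 / 4) := admissible_quarter (by omega)
  refine ⟨hq, fun α hα => not_admissible hd hα, ?_, ?_⟩
  · apply le_csSup
    · exact ⟨1, fun α hα => hα.2.1⟩
    · rw [Set.mem_ofPred_eq]
      exact ⟨by norm_num, by norm_num, hq⟩
  · refine Real.sSup_le (fun α hα => ?_) (by norm_num)
    rw [Set.mem_ofPred_eq] at hα
    by_contra hcon
    exact not_admissible hd (not_le.mp hcon) hα.2.2

end Vale.Agent.Results.P074.B_quarter
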