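import Vale.Agent.Lib.P074.W1

namespace Vale.Agent.Results.P074.C_W1sharp

open Vale.Agent.P074

/-- In every dimension `d ≥ 2` the sharp stability exponent with respect to the first transport
distance is exactly `1/4`, and it is attained. -/
theorem result (d : ℕ) (hd : 2 ≤ d) :
    AdmissibleOne d (1 / 4) ∧ ∀ α : ℝ, 1 / 4 < α → ¬ AdmissibleOne d α :=
  ⟨admissibleOne_quarter (by omega), fun _ hα => not_admissibleOne hd hα⟩

end Vale.Agent.Results.P074.C_W1sharp
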