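import Vale.Agent.Lib.P074.Main
import Vale.Agent.Lib.P074.Third

namespace Vale.Agent.Results.P074.D_third

open Vale.Agent.P074

/-- In every dimension `d ≥ 2` the exponent `1/3` is admissible while no exponent above `1/3`
is admissible; hence the supremum of the admissible exponents equals `1/3` and is attained. -/
theorem result (d : ℕ) (hd : 2 ≤ d) :
    Admissible d (1 / 3) ∧ (∀ α : ℝ, 1 / 3 < α → ¬ Admissible d α) ∧
      sSup {α : ℝ | 0 < α ∧ α ≤ 1 ∧ Admissible d α} = 1 / 3 := by
  have hq : Admissible d (1 / 3) := admissible_third (by omega)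
  refine ⟨hq, fun α hα => not_admissible hd hα, ?_⟩
  apply le_antisymm
  · refine Real.sSup_le (fun α hα => ?_) (by norm_num)
    rw [Set.mem_ofPred_eq] at hα
    by_contra hcon
    exact not_admissible hd (not_le.mp hcon) hα.2.2
  · apply le_csSup
    · exact ⟨1, fun α hα => hα.2.1⟩
    · rw [Set.mem_ofPred_eq]
      exact ⟨by norm_num, by norm_num, hq⟩

end Vale.Agent.Results.P074.D_third
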